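import Vale.Agent.Lib.P161.Main
import Vale.Agent.Lib.P161.TreeExtra

/-!
The free Ising measure on the `d`-regular tree is a factor of i.i.d. uniform labels when
`4 β √(d - 1) < 1`.
-/

namespace Vale.Agent.Results.P161.A_FactorOfIID

open MeasureTheory
open Vale.Agent.Lib.P161

/-- For `d ≥ 3` and `β ≥ 0` with `4 β √(d - 1) < 1`, there is a measurable map `Φ` from labels on the
vertices of the `d`-regular tree (itself certified as a `d`-regular tree) to spins, equivariant
almost surely for each fixed automorphism, such that under i.i.d. uniform labels the spins `Φ U` have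
the law of the free Ising measure: on each finite connected set `D` the marginal is
`1 / 2 * ∏ (1 + θ η_u η_v) / 2` over the edges of `D`, where `θ = tanh β`. -/
theorem result (d : ℕ) (hd : 3 ≤ d) (β : ℝ) (hβ : 0 ≤ β) (h : 4 * β * √((d : ℝ) - 1) < 1) :
    (treeGraph d).IsTree ∧ (∀ v, Set.ncard ((treeGraph d).neighborSet v) = d) ∧
    ∃ Φ : (Word d → unitInterval) → (Word d → Bool), Measurable Φ ∧
      (∀ g : Aut d, ∀ᵐ U ∂(Measure.infinitePi fun _ : Word d => (volume : Measure unitInterval)),
        Φ (fun v => U (g.symm v)) = fun v => Φ U (g.symm v)) ∧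
      ∀ D : Finset (Word d), ((treeGraph d).induce (D : Set (Word d))).Connected →
        ∀ η : Word d → Bool,
          (Measure.infinitePi fun _ : Word d => (volume : Measure unitInterval))
              {U | ∀ v ∈ D, Φ U v = η v} =
            ENNReal.ofReal (1 / 2 * ∏ e ∈ edgesIn D, eWt (Real.tanh β) η e) :=
  ⟨treeGraph_isTree, treeGraph_degree, main_factor hβ (by omega) h⟩

end Vale.Agent.Results.P161.A_FactorOfIID
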